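import Vale.Agent.P064.PartA
import Vale.Agent.P064.PartB
import Vale.Agent.P064.Frac

/-!
# The second Kahn-Kalai conjecture (P064, question Q1), with the fractional comparison

There is a universal constant `C` such that `pt_E(n,H) ≤ C p_E(n,H)` and
`p_c(n,H) ≤ C p_E(n,H) log n` for all `n ≥ 2` and all graphs `H` with at least one edge and at
most `n` vertices.
-/

namespace Vale.Agent.Results.P064.AllThresholds

open Finset

/-- `N(G,F)`: the number of subgraphs of `G` isomorphic to `F`. -/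
noncomputable def copies {V W : Type} (G : SimpleGraph V) (F : SimpleGraph W) : ℕ :=
  Nat.card {S : G.Subgraph // Nonempty (S.coe ≃g F)}

open Classical in
/-- The expectation of `f (G(n,p))`: the random graph `G(n,p)` on the vertex set `Fin n` equals a
given graph `G` with probability `p ^ e(G) * (1 - p) ^ (n.choose 2 - e(G))`. -/
noncomputable def gnpE (n : ℕ) (p : ℝ) (f : SimpleGraph (Fin n) → ℝ) : ℝ :=
  ∑ G : SimpleGraph (Fin n),
    p ^ G.edgeFinset.card * (1 - p) ^ (n.choose 2 - G.edgeFinset.card) * f G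

/-- The set of all `p` in `[0,1]` with `Pr (N(G(n,p),H) > 0) ≥ 1/2`. -/
noncomputable def pcSet (n : ℕ) {V : Type} (H : SimpleGraph V) : Set ℝ :=
  {p : ℝ | 0 ≤ p ∧ p ≤ 1 ∧ 1 / 2 ≤ gnpE n p (fun G => if 0 < copies G H then 1 else 0)}

/-- The set of all `p` in `[0,1]` with `E N(G(n,p),F) ≥ 1/2` for every subgraph `F` of `H`. -/
noncomputable def pESet (n : ℕ) {V : Type} (H : SimpleGraph V) : Set ℝ :=
  {p : ℝ | 0 ≤ p ∧ p ≤ 1 ∧ ∀ F : H.Subgraph, 1 / 2 ≤ gnpE n p (fun G => (copies G F.coe : ℝ))}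

/-- The set of all `p` in `[0,1]` with `E N(G(n,p),F) ≥ N(H,F)/2` for every subgraph `F` of `H`. -/
noncomputable def ptESet (n : ℕ) {V : Type} (H : SimpleGraph V) : Set ℝ :=
  {p : ℝ | 0 ≤ p ∧ p ≤ 1 ∧ ∀ F : H.Subgraph,
    (copies H F.coe : ℝ) / 2 ≤ gnpE n p (fun G => (copies G F.coe : ℝ))}

/-- The threshold `p_c(n,H)`. -/
noncomputable def pc (n : ℕ) {V : Type} (H : SimpleGraph V) : ℝ := sInf (pcSet n H)

/-- The expectation threshold `p_E(n,H)`. -/
noncomputable def pE (n : ℕ) {V : Type} (H : SimpleGraph V) : ℝ := sInf (pESet n H)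

/-- The fractional expectation threshold (`p_E` with a tilde). -/
noncomputable def ptE (n : ℕ) {V : Type} (H : SimpleGraph V) : ℝ := sInf (ptESet n H)

lemma continuous_gnpE (n : ℕ) (f : SimpleGraph (Fin n) → ℝ) :
    Continuous (fun p : ℝ => gnpE n p f) := by
  unfold gnpE
  fun_prop

lemma isLeast_pc {n : ℕ} {V : Type} [Fintype V] {H : SimpleGraph V} (hV : Fintype.card V ≤ n) :
    IsLeast (pcSet n H) (pc n H) := by
  obtain ⟨ι⟩ : Nonempty (V ↪ Fin n) :=
    Function.Embedding.nonempty_of_card_le (by simpa using hV)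
  have hcl : IsClosed (pcSet n H) := by
    unfold pcSet
    simp only [Set.ofPred_and]
    exact (isClosed_le continuous_const continuous_id).inter
      ((isClosed_le continuous_id continuous_const).inter
        (isClosed_le continuous_const (continuous_gnpE n _)))
  have hcomp : IsCompact (pcSet n H) :=
    isCompact_Icc.of_isClosed_subset hcl (fun p hp => ⟨hp.1, hp.2.1⟩)
  refine hcomp.isLeast_sInf ⟨1, zero_le_one, le_rfl, ?_⟩
  have h1 := Vale.Agent.P064.gnpE_one n (fun G => if 0 < copies G H then 1 else 0)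
  have h2 : gnpE n 1 (fun G => if 0 < copies G H then 1 else 0)
      = if 0 < copies (⊤ : SimpleGraph (Fin n)) H then 1 else 0 := h1
  have h3 : 0 < copies (⊤ : SimpleGraph (Fin n)) H := Vale.Agent.P064.copies_top_pos H ι
  rw [h2, if_pos h3]
  norm_num

lemma isLeast_pE {n : ℕ} {V : Type} [Fintype V] {H : SimpleGraph V} (hV : Fintype.card V ≤ n) :
    IsLeast (pESet n H) (pE n H) := by
  obtain ⟨ι⟩ : Nonempty (V ↪ Fin n) :=
    Function.Embedding.nonempty_of_card_le (by simpa using hV)
  have hcl : IsClosed (pESet n H) := by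
    unfold pESet
    simp only [Set.ofPred_and, Set.ofPred_forall]
    exact (isClosed_le continuous_const continuous_id).inter
      ((isClosed_le continuous_id continuous_const).inter
        (isClosed_iInter (fun F => isClosed_le continuous_const (continuous_gnpE n _))))
  have hcomp : IsCompact (pESet n H) :=
    isCompact_Icc.of_isClosed_subset hcl (fun p hp => ⟨hp.1, hp.2.1⟩)
  refine hcomp.isLeast_sInf ⟨1, zero_le_one, le_rfl, fun F => ?_⟩
  have h1 : gnpE n 1 (fun G => (copies G F.coe : ℝ))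
      = (copies (⊤ : SimpleGraph (Fin n)) F.coe : ℝ) :=
    Vale.Agent.P064.gnpE_one n (fun G => (copies G F.coe : ℝ))
  have h2 : 0 < copies (⊤ : SimpleGraph (Fin n)) F.coe :=
    Vale.Agent.P064.copies_top_pos F.coe ((Function.Embedding.subtype _).trans ι)
  have h3 : (1 : ℝ) ≤ (copies (⊤ : SimpleGraph (Fin n)) F.coe : ℝ) := by exact_mod_cast h2
  rw [h1]
  linarith

lemma isLeast_ptE {n : ℕ} {V : Type} {H : SimpleGraph V} (hne : (ptESet n H).Nonempty) :
    IsLeast (ptESet n H) (ptE n H) := by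
  have hcl : IsClosed (ptESet n H) := by
    unfold ptESet
    simp only [Set.ofPred_and, Set.ofPred_forall]
    exact (isClosed_le continuous_const continuous_id).inter
      ((isClosed_le continuous_id continuous_const).inter
        (isClosed_iInter (fun F => isClosed_le continuous_const (continuous_gnpE n _))))
  have hcomp : IsCompact (ptESet n H) :=
    isCompact_Icc.of_isClosed_subset hcl (fun p hp => ⟨hp.1, hp.2.1⟩)
  exact hcomp.isLeast_sInf hne

/-- **The second Kahn-Kalai conjecture.** There is a universal constant `C` such that for all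
`n ≥ 2` and all graphs `H` with at least one edge and at most `n` vertices, the minima defining
`p_c(n,H)`, `p_E(n,H)` and `pt_E(n,H)` are attained, `p_E ≤ pt_E ≤ C * p_E` and
`p_c ≤ C * p_E * log n`. -/
theorem result :
    ∃ C : ℝ, 0 < C ∧ ∀ n : ℕ, 2 ≤ n → ∀ (V : Type) [Fintype V] (H : SimpleGraph V),
      H ≠ ⊥ → Fintype.card V ≤ n →
        IsLeast (pcSet n H) (pc n H) ∧ IsLeast (pESet n H) (pE n H) ∧
          IsLeast (ptESet n H) (ptE n H) ∧ pE n H ≤ ptE n H ∧ ptE n H ≤ C * pE n H ∧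
          pc n H ≤ C * pE n H * Real.log n := by
  obtain ⟨C₁, hC₁, h₁⟩ :=
    Vale.Agent.P064.partC Vale.Agent.P064.partA Vale.Agent.P064.partB
  obtain ⟨C₂, hC₂, h₂⟩ := Vale.Agent.P064.frac_of_partA Vale.Agent.P064.partA
  refine ⟨max C₁ C₂, lt_max_of_lt_left hC₁, fun n hn V _ H hH hV => ?_⟩
  have hpc := isLeast_pc (H := H) hV
  have hpE := isLeast_pE (H := H) hV
  have hE0 : 0 ≤ pE n H := hpE.1.1
  have hlog : 0 ≤ Real.log n := Real.log_nonneg (by exact_mod_cast (by omega : 1 ≤ n))
  have hmem : min 1 (C₂ * pE n H) ∈ ptESet n H := by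
    refine ⟨le_min zero_le_one (by positivity), min_le_left _ _, fun F => ?_⟩
    have h3 := h₂ n V H hH hV (pE n H) hpE.1.1 hpE.1.2.1 hpE.1.2.2 F
    have h4 : (copies H F.coe : ℝ) ≤ gnpE n (min 1 (C₂ * pE n H))
        (fun G => (copies G F.coe : ℝ)) := h3
    have h5 : (0 : ℝ) ≤ (copies H F.coe : ℝ) := Nat.cast_nonneg _
    linarith
  have hptE := isLeast_ptE (H := H) ⟨_, hmem⟩
  have hle1 : ptE n H ≤ C₂ * pE n H := (hptE.2 hmem).trans (min_le_right _ _)
  have hle2 : pE n H ≤ ptE n H := by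
    refine hpE.2 ⟨hptE.1.1, hptE.1.2.1, fun F => ?_⟩
    have h3 := hptE.1.2.2 F
    have h4 : 0 < copies H F.coe := by
      unfold copies
      have : Nonempty {S : H.Subgraph // Nonempty (S.coe ≃g F.coe)} :=
        ⟨⟨F, ⟨SimpleGraph.Iso.refl⟩⟩⟩
      exact Nat.card_pos
    have h5 : (1 : ℝ) ≤ (copies H F.coe : ℝ) := by exact_mod_cast h4
    linarith
  have h3 : Vale.Agent.P064.pc n H = pc n H := by
    unfold Vale.Agent.P064.pc pc pcSet
    congr!
  have h4 : Vale.Agent.P064.pE n H = pE n H := rfl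
  have h5 := h₁ n hn V H hH hV
  rw [h3, h4] at h5
  refine ⟨hpc, hpE, hptE, hle2, hle1.trans ?_, h5.trans ?_⟩
  · exact mul_le_mul_of_nonneg_right (le_max_right _ _) hE0
  · exact mul_le_mul_of_nonneg_right (mul_le_mul_of_nonneg_right (le_max_left _ _) hE0) hlog

end Vale.Agent.Results.P064.AllThresholds
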